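import Mathlib

/-!
# S0010, work package AS (assembly): from the line lemma to a ring homomorphism

Abstract setting (no `KOne`, no derivations, no prime `p`):
* `K`, `L` fields, `FK`, `FL` subfields (in the application: the subfields of `p`-th powers);
* `Rel FL u v` : `u = a * v` for some nonzero `a ∈ FL`;
* `adj FL x` : the subfield generated by `FL` and `x`;
* `th : K → L` a representative map of the (normalised) isomorphism of `K^×/FK^×` with `L^×/FL^×`.

Main result: `AssemblyData.exists_ringHom`.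
-/

set_option autoImplicit false

namespace Crest.Agent.Helper50.S0010

variable {K L : Type*} [Field K] [Field L]

/-- `u = a * v` for some nonzero `a` in the subfield `F`. -/
def Rel (F : Subfield L) (u v : L) : Prop := ∃ a ∈ F, a ≠ 0 ∧ u = a * v

/-- The subfield generated by `F` and `x`. -/
def adj (F : Subfield L) (x : L) : Subfield L := Subfield.closure ((F : Set L) ∪ {x})

namespace Rel

variable {F : Subfield L} {u v w u' v' : L}

theorem refl (u : L) : Rel F u u := ⟨1, F.one_mem, one_ne_zero, (one_mul u).symm⟩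

theorem symm (h : Rel F u v) : Rel F v u := by
  obtain ⟨a, ha, ha0, rfl⟩ := h
  exact ⟨a⁻¹, F.inv_mem ha, inv_ne_zero ha0, by field_simp⟩

theorem trans (h : Rel F u v) (h' : Rel F v w) : Rel F u w := by
  obtain ⟨a, ha, ha0, rfl⟩ := h
  obtain ⟨b, hb, hb0, rfl⟩ := h'
  exact ⟨a * b, F.mul_mem ha hb, mul_ne_zero ha0 hb0, by ring⟩

theorem mul (h : Rel F u v) (h' : Rel F u' v') : Rel F (u * u') (v * v') := by
  obtain ⟨a, ha, ha0, rfl⟩ := h
  obtain ⟨b, hb, hb0, rfl⟩ := h'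
  exact ⟨a * b, F.mul_mem ha hb, mul_ne_zero ha0 hb0, by ring⟩

theorem of_eq (h : u = v) : Rel F u v := h ▸ refl u

theorem eq_zero_iff (h : Rel F u v) : u = 0 ↔ v = 0 := by
  obtain ⟨a, _, ha0, rfl⟩ := h
  simp [ha0]

theorem mem_iff (h : Rel F u v) {S : Subfield L} (hS : F ≤ S) : u ∈ S ↔ v ∈ S := by
  obtain ⟨a, ha, ha0, rfl⟩ := h
  constructor
  · intro h1
    have : v = a⁻¹ * (a * v) := by field_simp
    rw [this]
    exact S.mul_mem (S.inv_mem (hS ha)) h1
  · intro h1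
    exact S.mul_mem (hS ha) h1

theorem mem_iff' (h : Rel F u v) : u ∈ F ↔ v ∈ F := h.mem_iff le_rfl

/-- multiplying by a nonzero element of `F` -/
theorem smul_left {c : L} (hc : c ∈ F) (hc0 : c ≠ 0) (u : L) : Rel F (c * u) u :=
  ⟨c, hc, hc0, rfl⟩

theorem smul_right {c : L} (hc : c ∈ F) (hc0 : c ≠ 0) (u : L) : Rel F u (c * u) :=
  (smul_left hc hc0 u).symm

/-- two nonzero elements of `F` are related -/
theorem of_mem (hu : u ∈ F) (hv : v ∈ F) (hu0 : u ≠ 0) (hv0 : v ≠ 0) : Rel F u v :=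
  ⟨u * v⁻¹, F.mul_mem hu (F.inv_mem hv), mul_ne_zero hu0 (inv_ne_zero hv0), by field_simp⟩

theorem div (h : Rel F u v) (h' : Rel F u' v') : Rel F (u / u') (v / v') := by
  obtain ⟨a, ha, ha0, rfl⟩ := h
  obtain ⟨b, hb, hb0, rfl⟩ := h'
  refine ⟨a * b⁻¹, F.mul_mem ha (F.inv_mem hb), mul_ne_zero ha0 (inv_ne_zero hb0), ?_⟩
  by_cases hv : v' = 0
  · simp [hv]
  · field_simp

end Rel

section adj

variable {F : Subfield L} {x y w : L}

theorem le_adj (F : Subfield L) (x : L) : F ≤ adj F x := fun _ ha =>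
  Subfield.subset_closure (Or.inl ha)

theorem self_mem_adj (F : Subfield L) (x : L) : x ∈ adj F x :=
  Subfield.subset_closure (Or.inr rfl)

theorem adj_le {S : Subfield L} (hF : F ≤ S) (hx : x ∈ S) : adj F x ≤ S := by
  apply Subfield.closure_le.mpr
  rintro z (hz | hz)
  · exact hF hz
  · rw [Set.mem_singleton_iff] at hz; rw [hz]; exact hx

theorem adj_mono (hw : w ∈ adj F x) : adj F w ≤ adj F x := adj_le (le_adj F x) hw

theorem adj_eq_of_rel (h : Rel F x y) : adj F x = adj F y :=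
  le_antisymm (adj_mono ((h.mem_iff (le_adj F y)).mpr (self_mem_adj F y)))
    (adj_mono ((h.symm.mem_iff (le_adj F x)).mpr (self_mem_adj F x)))

theorem one_mem_adj (F : Subfield L) (x : L) : (1 : L) ∈ adj F x := (adj F x).one_mem

/-- independence of `1, x` over `F` -/
theorem ind2 (hx : x ∉ F) {a b a' b' : L} (ha : a ∈ F) (hb : b ∈ F) (ha' : a' ∈ F) (hb' : b' ∈ F)
    (h : a + b * x = a' + b' * x) : a = a' ∧ b = b' := by
  by_cases hbb : b = b'
  · subst hbb
    exact ⟨by simpa using h, rfl⟩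
  · exfalso
    apply hx
    have hne : b - b' ≠ 0 := sub_ne_zero.mpr hbb
    have : x = (a' - a) * (b - b')⁻¹ := by
      field_simp
      linear_combination h
    rw [this]
    exact F.mul_mem (F.sub_mem ha' ha) (F.inv_mem (F.sub_mem hb hb'))

/-- independence of `1, x, y` over `F` -/
theorem ind3 (hx : x ∉ F) (hy : y ∉ adj F x) {a b c a' b' c' : L}
    (ha : a ∈ F) (hb : b ∈ F) (hc : c ∈ F) (ha' : a' ∈ F) (hb' : b' ∈ F) (hc' : c' ∈ F)
    (h : a + b * x + c * y = a' + b' * x + c' * y) : a = a' ∧ b = b' ∧ c = c' := by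
  by_cases hcc : c = c'
  · subst hcc
    have := ind2 hx ha hb ha' hb' (by linear_combination h)
    exact ⟨this.1, this.2, rfl⟩
  · exfalso
    apply hy
    have hne : c - c' ≠ 0 := sub_ne_zero.mpr hcc
    have : y = ((a' - a) + (b' - b) * x) * (c - c')⁻¹ := by
      field_simp
      linear_combination h
    rw [this]
    have hF := le_adj F x
    exact (adj F x).mul_mem ((adj F x).add_mem (hF (F.sub_mem ha' ha))
      ((adj F x).mul_mem (hF (F.sub_mem hb' hb)) (self_mem_adj F x)))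
      ((adj F x).inv_mem (hF (F.sub_mem hc hc')))

end adj

/-- The abstract hypotheses of the assembly step. In the application `FK = K^p`, `FL = L^p`,
`th f` is a representative of `m⁻¹ • Θ [f]` and `line` is the line lemma with `m = 1`. -/
structure AssemblyData (FK : Subfield K) (FL : Subfield L) (th : K → L) : Prop where
  th_zero : ∀ f, th f = 0 ↔ f = 0
  th_mul : ∀ f g, Rel FL (th (f * g)) (th f * th g)
  th_mem : ∀ f, th f ∈ FL ↔ f ∈ FK
  th_surj : ∀ z, ∃ f, Rel FL (th f) z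
  exch : ∀ x w, w ∈ adj FL x → w ∉ FL → x ∈ adj FL w
  partner : ∀ x, x ∉ FL → ∃ y, y ∉ adj FL x
  nontriv : ∃ x, x ∉ FL
  line : ∀ f g, th f ∉ FL → th g ∉ adj FL (th f) →
    ∃ (P Q : L) (lam : K → L), lam 0 = 0 ∧ (∀ c ∈ FK, lam c ∈ FL ∧ (lam c = 0 → c = 0)) ∧
      (∀ c ∈ FK, Rel FL (th (f + c)) (P + lam c)) ∧
      (∀ c ∈ FK, Rel FL (th (g - c)) (Q - lam c)) ∧
      Rel FL (th (f + g)) (P + Q)

/-- `(f, g)` is a generic pair: the images are independent over `FL`. -/
def Gen (FL : Subfield L) (th : K → L) (f g : K) : Prop := th f ∉ FL ∧ th g ∉ adj FL (th f)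

namespace AssemblyData

variable {FK : Subfield K} {FL : Subfield L} {th : K → L} (h : AssemblyData FK FL th)
include h

theorem th_not_mem {f : K} (hf : f ∉ FK) : th f ∉ FL := fun hh => hf ((h.th_mem f).mp hh)

theorem not_mem_of_th {f : K} (hf : th f ∉ FL) : f ∉ FK := fun hh => hf ((h.th_mem f).mpr hh)

theorem exists_not_mem : ∃ f : K, f ∉ FK := by
  obtain ⟨x, hx⟩ := h.nontriv
  obtain ⟨f, hf⟩ := h.th_surj x
  exact ⟨f, h.not_mem_of_th (fun hh => hx (hf.mem_iff'.mp hh))⟩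

/-- every non-`FK` element has a generic partner -/
theorem exists_partner {f : K} (hf : f ∉ FK) : ∃ g, Gen FL th f g := by
  obtain ⟨y, hy⟩ := h.partner (th f) (h.th_not_mem hf)
  obtain ⟨g, hg⟩ := h.th_surj y
  exact ⟨g, h.th_not_mem hf, fun hh => hy ((hg.mem_iff (le_adj FL _)).mp hh)⟩

/-- the normalised line lemma, before `a0` is available -/
theorem line_norm0 {f g : K} (hG : Gen FL th f g) :
    ∃ (z Q : L) (lam : K → L), lam 0 = 0 ∧ lam 1 = 1 ∧
      (∀ c ∈ FK, lam c ∈ FL ∧ (lam c = 0 → c = 0)) ∧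
      (∀ c ∈ FK, Rel FL (th (f + c)) (z + lam c)) ∧
      (∀ c ∈ FK, Rel FL (th (g - c)) (Q - lam c)) ∧
      Rel FL (th (f + g)) (z + Q) := by
  obtain ⟨P, Q, lam, h0, hlam, hf, hg, hfg⟩ := h.line f g hG.1 hG.2
  have h1 : lam 1 ∈ FL := (hlam 1 FK.one_mem).1
  have h10 : lam 1 ≠ 0 := fun hh => one_ne_zero ((hlam 1 FK.one_mem).2 hh)
  have hi : (lam 1)⁻¹ ∈ FL := FL.inv_mem h1
  have key : ∀ u : L, Rel FL u ((lam 1)⁻¹ * u) := fun u => Rel.smul_right hi (inv_ne_zero h10) u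
  refine ⟨(lam 1)⁻¹ * P, (lam 1)⁻¹ * Q, fun c => (lam 1)⁻¹ * lam c, by simp [h0], by field_simp,
    fun c hc => ⟨FL.mul_mem hi (hlam c hc).1, fun hh => (hlam c hc).2 ?_⟩, fun c hc => ?_,
    fun c hc => ?_, ?_⟩
  · rcases mul_eq_zero.mp hh with hh | hh
    · exact absurd hh (inv_ne_zero h10)
    · exact hh
  · have := (hf c hc).trans (key _)
    rwa [mul_add] at this
  · have := (hg c hc).trans (key _)
    rwa [mul_sub] at this
  · have := hfg.trans (key _)
    rwa [mul_add] at this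

theorem exists_a0 {f : K} (hf : f ∉ FK) :
    ∃ z, Rel FL (th f) z ∧ Rel FL (th (f + 1)) (z + 1) := by
  obtain ⟨g, hG⟩ := h.exists_partner hf
  obtain ⟨z, Q, lam, h0, h1, -, hf', -, -⟩ := h.line_norm0 hG
  refine ⟨z, ?_, ?_⟩
  · have := hf' 0 FK.zero_mem
    rwa [add_zero, h0, add_zero] at this
  · have := hf' 1 FK.one_mem
    rwa [h1] at this

theorem a0_unique {f : K} (hf : f ∉ FK) {z z' : L} (h1 : Rel FL (th f) z)
    (h2 : Rel FL (th (f + 1)) (z + 1)) (h1' : Rel FL (th f) z')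
    (h2' : Rel FL (th (f + 1)) (z' + 1)) : z = z' := by
  have hz' : z' ∉ FL := fun hh => h.th_not_mem hf (h1'.mem_iff'.mpr hh)
  obtain ⟨a, ha, -, hza⟩ := h1.symm.trans h1'
  obtain ⟨b, hb, -, hzb⟩ := h2.symm.trans h2'
  have := ind2 hz' FL.one_mem ha hb hb (a := 1) (b := a) (a' := b) (b' := b)
    (by rw [← hza]; linear_combination hzb)
  rw [hza, this.2, ← this.1, one_mul]

open Classical in
/-- the canonical lift `α₀ f` of the class of `th f` (for `f ∉ FK`), characterised by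
`th f ~ α₀ f` and `th (f + 1) ~ α₀ f + 1`. -/
noncomputable def a0 (f : K) : L :=
  if hf : f ∈ FK then 0 else Classical.choose (h.exists_a0 hf)

theorem a0_spec {f : K} (hf : f ∉ FK) :
    Rel FL (th f) (h.a0 f) ∧ Rel FL (th (f + 1)) (h.a0 f + 1) := by
  unfold a0
  rw [dif_neg hf]
  exact Classical.choose_spec (h.exists_a0 hf)

theorem a0_eq {f : K} (hf : f ∉ FK) {z : L} (h1 : Rel FL (th f) z)
    (h2 : Rel FL (th (f + 1)) (z + 1)) : h.a0 f = z :=
  h.a0_unique hf (h.a0_spec hf).1 (h.a0_spec hf).2 h1 h2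

theorem a0_not_mem {f : K} (hf : f ∉ FK) : h.a0 f ∉ FL := fun hh =>
  h.th_not_mem hf ((h.a0_spec hf).1.mem_iff'.mpr hh)

theorem adj_a0 {f : K} (hf : f ∉ FK) : adj FL (h.a0 f) = adj FL (th f) :=
  (adj_eq_of_rel (h.a0_spec hf).1).symm

/-! ### generic pairs -/

theorem gen_left {f g : K} (hG : Gen FL th f g) : f ∉ FK := h.not_mem_of_th hG.1

theorem gen_right {f g : K} (hG : Gen FL th f g) : g ∉ FK :=
  h.not_mem_of_th (fun hh => hG.2 (le_adj FL _ hh))

theorem gen_symm {f g : K} (hG : Gen FL th f g) : Gen FL th g f :=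
  ⟨h.th_not_mem (h.gen_right hG), fun hh => hG.2 (h.exch _ _ hh hG.1)⟩

/-- a generic pair in terms of the lifts -/
theorem gen_a0 {f g : K} (hG : Gen FL th f g) : h.a0 g ∉ adj FL (h.a0 f) := by
  rw [h.adj_a0 (h.gen_left hG)]
  exact fun hh => hG.2 (((h.a0_spec (h.gen_right hG)).1.mem_iff (le_adj FL _)).mpr hh)

/-- constructor for generic pairs from representatives -/
theorem gen_of_rel {f g : K} {x y : L} (hx : Rel FL (th f) x) (hy : Rel FL (th g) y)
    (hx' : x ∉ FL) (hy' : y ∉ adj FL x) : Gen FL th f g := by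
  refine ⟨fun hh => hx' (hx.mem_iff'.mp hh), ?_⟩
  rw [adj_eq_of_rel hx]
  exact fun hh => hy' ((hy.mem_iff (le_adj FL _)).mp hh)

/-- constructor for generic pairs: second representative in a smaller field -/
theorem gen_of_rel' {f g : K} {x y x' : L} (hx : Rel FL (th f) x) (hy : Rel FL (th g) y)
    (hx' : x ∉ FL) (hxx : x ∈ adj FL x') (hy' : y ∉ adj FL x') : Gen FL th f g :=
  h.gen_of_rel hx hy hx' (fun hh => hy' (adj_mono hxx hh))

/-- the normalised line lemma in terms of `a0` (with an unknown factor `e`) -/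
theorem line_norm {f g : K} (hG : Gen FL th f g) :
    ∃ (e : L) (lam : K → L), e ∈ FL ∧ e ≠ 0 ∧ lam 0 = 0 ∧ lam 1 = 1 ∧
      (∀ c ∈ FK, lam c ∈ FL ∧ (lam c = 0 → c = 0)) ∧
      (∀ c ∈ FK, Rel FL (th (f + c)) (h.a0 f + lam c)) ∧
      (∀ c ∈ FK, Rel FL (th (g - c)) (e * h.a0 g - lam c)) ∧
      Rel FL (th (f + g)) (h.a0 f + e * h.a0 g) := by
  obtain ⟨z, Q, lam, h0, h1, hlam, hf, hg, hfg⟩ := h.line_norm0 hG
  have hz : h.a0 f = z := by
    apply h.a0_eq (h.gen_left hG)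
    · have := hf 0 FK.zero_mem
      rwa [add_zero, h0, add_zero] at this
    · have := hf 1 FK.one_mem
      rwa [h1] at this
  have hQ : Rel FL Q (h.a0 g) := by
    have := hg 0 FK.zero_mem
    rw [sub_zero, h0, sub_zero] at this
    exact this.symm.trans (h.a0_spec (h.gen_right hG)).1
  obtain ⟨e, he, he0, rfl⟩ := hQ
  exact ⟨e, lam, he, he0, h0, h1, hlam, hz ▸ hf, hg, hz ▸ hfg⟩

/-- **A4**: on generic pairs `a0` is additive (and the factor `e` of `line_norm` is `1`). -/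
theorem key {f g : K} (hG : Gen FL th f g) {e : L} (he : e ∈ FL)
    (hfg : Rel FL (th (f + g)) (h.a0 f + e * h.a0 g)) :
    e = 1 ∧ f + g ∉ FK ∧ h.a0 (f + g) = h.a0 f + h.a0 g := by
  have hf := h.gen_left hG
  have hg := h.gen_right hG
  have hx := h.a0_not_mem hf
  have hy := h.gen_a0 hG
  set x := h.a0 f with hxdef
  set y := h.a0 g with hydef
  -- `f + g ∉ FK`
  have hfgK : f + g ∉ FK := by
    intro hh
    have h1 : x + e * y ∈ FL := hfg.mem_iff'.mp ((h.th_mem _).mpr hh)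
    have := ind3 hx hy h1 FL.zero_mem FL.zero_mem FL.zero_mem FL.one_mem he
      (a := x + e * y) (b := 0) (c := 0) (a' := 0) (b' := 1) (c' := e) (by ring)
    exact zero_ne_one this.2.1
  -- the pair `(f + 1, g)`
  have hG1 : Gen FL th (f + 1) g :=
    h.gen_of_rel' (h.a0_spec hf).2 (h.a0_spec hg).1
      (fun hh => hx (by simpa using FL.sub_mem hh FL.one_mem))
      ((adj FL x).add_mem (self_mem_adj FL x) (one_mem_adj FL x)) hy
  -- the pair `(f, g + 1)`
  have hG2 : Gen FL th f (g + 1) :=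
    h.gen_of_rel (h.a0_spec hf).1 (h.a0_spec hg).2 hx
      (fun hh => hy (by simpa using (adj FL x).sub_mem hh (one_mem_adj FL x)))
  obtain ⟨e₁, -, he₁, -, -, -, -, -, -, h1⟩ := h.line_norm hG1
  obtain ⟨e₂, -, he₂, -, -, -, -, -, -, h2⟩ := h.line_norm hG2
  -- `a0 (f + 1) = a₁ (x + 1)`, `a0 (g + 1) = a₂ (y + 1)`
  obtain ⟨a₁, ha₁, ha₁0, h3⟩ := (h.a0_spec (h.gen_left hG1)).1.symm.trans (h.a0_spec hf).2
  obtain ⟨a₂, ha₂, ha₂0, h4⟩ := (h.a0_spec (h.gen_right hG2)).1.symm.trans (h.a0_spec hg).2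
  rw [h3] at h1
  rw [h4] at h2
  have hassoc : f + 1 + g = f + (g + 1) := by ring
  rw [hassoc] at h1
  obtain ⟨κ, hκ, hκ0, h5⟩ := h1.symm.trans h2
  have h6 := ind3 hx hy ha₁ ha₁ he₁ (FL.mul_mem hκ (FL.mul_mem he₂ ha₂)) hκ
    (FL.mul_mem hκ (FL.mul_mem he₂ ha₂))
    (a := a₁) (b := a₁) (c := e₁) (a' := κ * (e₂ * a₂)) (b' := κ) (c' := κ * (e₂ * a₂))
    (by linear_combination h5)
  have h7 : e₂ * a₂ = 1 := by
    have : κ * (e₂ * a₂) = κ * 1 := by rw [mul_one, ← h6.1, h6.2.1]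
    exact mul_left_cancel₀ hκ0 this
  -- `th (f + g + 1) ~ x + y + 1`
  have h8 : Rel FL (th (f + g + 1)) (x + y + 1) := by
    have : x + e₂ * (a₂ * (y + 1)) = x + y + 1 := by
      linear_combination (y + 1) * h7
    rw [this] at h2
    rwa [add_assoc]
  -- compare with `a0 (f + g)`
  obtain ⟨κ', hκ', hκ'0, h9⟩ := (h.a0_spec hfgK).1.symm.trans hfg
  obtain ⟨κ'', hκ'', hκ''0, h10⟩ := (h.a0_spec hfgK).2.symm.trans h8
  rw [h9] at h10
  have h11 := ind3 hx hy FL.one_mem hκ' (FL.mul_mem hκ' he) hκ'' hκ'' hκ''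
    (a := 1) (b := κ') (c := κ' * e) (a' := κ'') (b' := κ'') (c' := κ'')
    (by linear_combination h10)
  have hκ1 : κ' = 1 := by rw [h11.2.1, ← h11.1]
  have he1 : e = 1 := by
    have := h11.2.2
    rw [hκ1, ← h11.1, one_mul] at this
    exact this
  refine ⟨he1, hfgK, ?_⟩
  rw [h9, hκ1, he1]
  ring

theorem a0_add {f g : K} (hG : Gen FL th f g) : h.a0 (f + g) = h.a0 f + h.a0 g := by
  obtain ⟨e, lam, he, -, -, -, -, -, -, hfg⟩ := h.line_norm hG
  exact (h.key hG he hfg).2.2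

theorem add_not_mem {f g : K} (hG : Gen FL th f g) : f + g ∉ FK := by
  obtain ⟨e, lam, he, -, -, -, -, -, -, hfg⟩ := h.line_norm hG
  exact (h.key hG he hfg).2.1

/-- the strong normalised line lemma -/
theorem line_strong {f g : K} (hG : Gen FL th f g) :
    ∃ (lam : K → L), lam 0 = 0 ∧ lam 1 = 1 ∧
      (∀ c ∈ FK, lam c ∈ FL ∧ (lam c = 0 → c = 0)) ∧
      (∀ c ∈ FK, Rel FL (th (f + c)) (h.a0 f + lam c)) ∧
      (∀ c ∈ FK, Rel FL (th (g - c)) (h.a0 g - lam c)) := by
  obtain ⟨e, lam, he, he0, h0, h1, hlam, hf, hg, hfg⟩ := h.line_norm hG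
  have he1 := (h.key hG he hfg).1
  subst he1
  refine ⟨lam, h0, h1, hlam, hf, fun c hc => ?_⟩
  have := hg c hc
  rwa [one_mul] at this

/-! ### A5: the translation function -/

open Classical in
/-- `lamOf f c` is the element `ℓ ∈ FL` with `th (f + c) ~ a0 f + ℓ`. -/
noncomputable def lamOf (f c : K) : L :=
  if hx : ∃ ℓ, ℓ ∈ FL ∧ Rel FL (th (f + c)) (h.a0 f + ℓ) then Classical.choose hx else 0

theorem lamOf_eq {f c : K} (hf : f ∉ FK) {ℓ : L} (hℓ : ℓ ∈ FL)
    (hr : Rel FL (th (f + c)) (h.a0 f + ℓ)) : h.lamOf f c = ℓ := by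
  have hx : ∃ ℓ, ℓ ∈ FL ∧ Rel FL (th (f + c)) (h.a0 f + ℓ) := ⟨ℓ, hℓ, hr⟩
  unfold lamOf
  rw [dif_pos hx]
  obtain ⟨h1, h2⟩ := Classical.choose_spec hx
  set ℓ' := Classical.choose hx
  obtain ⟨κ, hκ, -, h3⟩ := h2.symm.trans hr
  have := ind2 (h.a0_not_mem hf) h1 FL.one_mem (FL.mul_mem hκ hℓ) hκ
    (a := ℓ') (b := 1) (a' := κ * ℓ) (b' := κ) (by linear_combination h3)
  rw [this.1, ← this.2, one_mul]

theorem lamOf_gen {f g : K} (hG : Gen FL th f g) {c : K} (hc : c ∈ FK) :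
    h.lamOf f c ∈ FL ∧ Rel FL (th (f + c)) (h.a0 f + h.lamOf f c) ∧
      (h.lamOf f c = 0 → c = 0) ∧ h.lamOf g (-c) = - h.lamOf f c := by
  obtain ⟨lam, -, -, hlam, hf, hg⟩ := h.line_strong hG
  have h1 : h.lamOf f c = lam c := h.lamOf_eq (h.gen_left hG) (hlam c hc).1 (hf c hc)
  have h2 : h.lamOf g (-c) = - lam c := by
    apply h.lamOf_eq (h.gen_right hG) (FL.neg_mem (hlam c hc).1)
    have := hg c hc
    rwa [sub_eq_add_neg, sub_eq_add_neg] at this
  rw [h1, h2]
  exact ⟨(hlam c hc).1, hf c hc, (hlam c hc).2, rfl⟩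

theorem lamOf_spec {f c : K} (hf : f ∉ FK) (hc : c ∈ FK) :
    h.lamOf f c ∈ FL ∧ Rel FL (th (f + c)) (h.a0 f + h.lamOf f c) ∧
      (h.lamOf f c = 0 → c = 0) := by
  obtain ⟨g, hG⟩ := h.exists_partner hf
  obtain ⟨h1, h2, h3, -⟩ := h.lamOf_gen hG hc
  exact ⟨h1, h2, h3⟩

theorem rel_add_gen {f g : K} (hG : Gen FL th f g) :
    Rel FL (th (f + g)) (h.a0 f + h.a0 g) := by
  have := (h.a0_spec (h.add_not_mem hG)).1
  rwa [h.a0_add hG] at this

theorem gen_add_right {f g : K} (hG : Gen FL th f g) : Gen FL th f (f + g) := by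
  refine h.gen_of_rel (h.a0_spec (h.gen_left hG)).1 (h.rel_add_gen hG)
    (h.a0_not_mem (h.gen_left hG)) (fun hh => h.gen_a0 hG ?_)
  simpa using (adj FL _).sub_mem hh (self_mem_adj FL _)

theorem lamOf_eq_of_gen {f g : K} (hG : Gen FL th f g) {c : K} (hc : c ∈ FK) :
    h.lamOf f c = h.lamOf g c := by
  have h1 := (h.lamOf_gen (h.gen_add_right hG) hc).2.2.2
  have h2 := (h.lamOf_gen (h.gen_add_right (h.gen_symm hG)) hc).2.2.2
  rw [add_comm g f, h1] at h2
  exact neg_injective h2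

theorem exists_common_partner {f f' : K} (hf : f ∉ FK) (hf' : f' ∉ FK) :
    ∃ g, Gen FL th f g ∧ Gen FL th f' g := by
  obtain ⟨y₁, hy₁⟩ := h.partner (th f) (h.th_not_mem hf)
  obtain ⟨y₂, hy₂⟩ := h.partner (th f') (h.th_not_mem hf')
  have key : ∃ y, y ∉ adj FL (th f) ∧ y ∉ adj FL (th f') := by
    by_cases h1 : y₁ ∈ adj FL (th f')
    · by_cases h2 : y₂ ∈ adj FL (th f)
      · refine ⟨y₁ + y₂, fun hh => hy₁ ?_, fun hh => hy₂ ?_⟩
        · simpa using (adj FL _).sub_mem hh h2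
        · simpa using (adj FL _).sub_mem hh h1
      · exact ⟨y₂, h2, hy₂⟩
    · exact ⟨y₁, hy₁, h1⟩
  obtain ⟨y, hy, hy'⟩ := key
  obtain ⟨g, hg⟩ := h.th_surj y
  exact ⟨g, ⟨h.th_not_mem hf, fun hh => hy ((hg.mem_iff (le_adj FL _)).mp hh)⟩,
    ⟨h.th_not_mem hf', fun hh => hy' ((hg.mem_iff (le_adj FL _)).mp hh)⟩⟩

theorem lamOf_indep {f f' c : K} (hf : f ∉ FK) (hf' : f' ∉ FK) (hc : c ∈ FK) :
    h.lamOf f c = h.lamOf f' c := by
  obtain ⟨g, hG, hG'⟩ := h.exists_common_partner hf hf'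
  rw [h.lamOf_eq_of_gen hG hc, h.lamOf_eq_of_gen hG' hc]

theorem add_const_not_mem {f c : K} (hf : f ∉ FK) (hc : c ∈ FK) : f + c ∉ FK := fun hh =>
  hf (by simpa using FK.sub_mem hh hc)

/-- **A5 (ii)** -/
theorem a0_add_const {f c : K} (hf : f ∉ FK) (hc : c ∈ FK) :
    h.a0 (f + c) = h.a0 f + h.lamOf f c := by
  obtain ⟨g, hG⟩ := h.exists_partner hf
  have hg := h.gen_right hG
  have hx := h.a0_not_mem hf
  have hy := h.gen_a0 hG
  obtain ⟨hℓ, hrel, -⟩ := h.lamOf_spec hf hc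
  have hfc := h.add_const_not_mem hf hc
  -- `a0 (f + c) = e (x + ℓ)`
  obtain ⟨e, he, he0, h1⟩ := (h.a0_spec hfc).1.symm.trans hrel
  -- the pair `(f + c, g)` is generic
  have hG' : Gen FL th (f + c) g :=
    h.gen_of_rel' hrel (h.a0_spec hg).1
      (fun hh => hx (by simpa using FL.sub_mem hh hℓ))
      ((adj FL _).add_mem (self_mem_adj FL _) (le_adj FL _ hℓ)) hy
  have h2 := h.a0_add hG'
  -- the element `f + g`
  have hfg := h.add_not_mem hG
  obtain ⟨hℓ', hrel', -⟩ := h.lamOf_spec hfg hc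
  obtain ⟨e', he', he'0, h3⟩ := (h.a0_spec (h.add_const_not_mem hfg hc)).1.symm.trans hrel'
  rw [h.a0_add hG] at h3
  have hassoc : f + c + g = f + g + c := by ring
  rw [hassoc, h3, h1] at h2
  have h4 := ind3 hx hy (FL.mul_mem he' hℓ') he' he' (FL.mul_mem he hℓ) he FL.one_mem
    (a := e' * h.lamOf (f + g) c) (b := e') (c := e') (a' := e * h.lamOf f c) (b' := e) (c' := 1)
    (by linear_combination h2)
  rw [h1, ← h4.2.1, h4.2.2, one_mul]

/-! ### A5/A6: the additive map -/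

/-- a fixed element outside `FK` -/
noncomputable def base : K := Classical.choose h.exists_not_mem

theorem base_not_mem : h.base ∉ FK := Classical.choose_spec h.exists_not_mem

/-- the map on `FK` -/
noncomputable def tau (c : K) : L := h.lamOf h.base c

theorem lamOf_eq_tau {f c : K} (hf : f ∉ FK) (hc : c ∈ FK) : h.lamOf f c = h.tau c :=
  h.lamOf_indep hf h.base_not_mem hc

theorem tau_mem {c : K} (hc : c ∈ FK) : h.tau c ∈ FL := (h.lamOf_spec h.base_not_mem hc).1

theorem tau_eq_zero {c : K} (hc : c ∈ FK) (h0 : h.tau c = 0) : c = 0 :=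
  (h.lamOf_spec h.base_not_mem hc).2.2 h0

theorem tau_zero : h.tau 0 = 0 := by
  apply h.lamOf_eq h.base_not_mem FL.zero_mem
  rw [add_zero, add_zero]
  exact (h.a0_spec h.base_not_mem).1

theorem tau_one : h.tau 1 = 1 :=
  h.lamOf_eq h.base_not_mem FL.one_mem (h.a0_spec h.base_not_mem).2

theorem a0_add_tau {f c : K} (hf : f ∉ FK) (hc : c ∈ FK) : h.a0 (f + c) = h.a0 f + h.tau c := by
  rw [h.a0_add_const hf hc, h.lamOf_eq_tau hf hc]

theorem tau_add {c c' : K} (hc : c ∈ FK) (hc' : c' ∈ FK) : h.tau (c + c') = h.tau c + h.tau c' := by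
  have h1 := h.a0_add_tau h.base_not_mem (FK.add_mem hc hc')
  have h2 := h.a0_add_tau (h.add_const_not_mem h.base_not_mem hc) hc'
  rw [h.a0_add_tau h.base_not_mem hc, add_assoc, h1] at h2
  linear_combination h2

open Classical in
/-- the additive (later: ring) map -/
noncomputable def al (f : K) : L := if f ∈ FK then h.tau f else h.a0 f

theorem al_of_mem {f : K} (hf : f ∈ FK) : h.al f = h.tau f := by
  unfold al; rw [if_pos hf]

theorem al_of_not_mem {f : K} (hf : f ∉ FK) : h.al f = h.a0 f := by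
  unfold al; rw [if_neg hf]

theorem rel_al (f : K) : Rel FL (th f) (h.al f) := by
  by_cases hf : f ∈ FK
  · rw [h.al_of_mem hf]
    by_cases hf0 : f = 0
    · subst hf0
      rw [h.tau_zero, (h.th_zero 0).mpr rfl]
      exact Rel.refl 0
    · exact Rel.of_mem ((h.th_mem f).mpr hf) (h.tau_mem hf)
        (fun hh => hf0 ((h.th_zero f).mp hh)) (fun hh => hf0 (h.tau_eq_zero hf hh))
  · rw [h.al_of_not_mem hf]
    exact (h.a0_spec hf).1

theorem al_one : h.al 1 = 1 := by rw [h.al_of_mem FK.one_mem, h.tau_one]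

/-- if `th g ∈ adj FL (th f)` then `th (f + g) ∈ adj FL (th f)` -/
theorem th_add_mem_adj {f g : K} (hf : f ∉ FK) (hg : th g ∈ adj FL (th f)) :
    th (f + g) ∈ adj FL (th f) := by
  have hf0 : f ≠ 0 := fun hh => hf (hh ▸ FK.zero_mem)
  have hthf0 : th f ≠ 0 := fun hh => hf0 ((h.th_zero f).mp hh)
  have h1 : f * (1 + g / f) = f + g := by field_simp
  have h2 : Rel FL (th (f + g)) (th f * th (1 + g / f)) := by
    have := h.th_mul f (1 + g / f)
    rwa [h1] at this
  rw [h2.mem_iff (le_adj FL _)]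
  apply (adj FL _).mul_mem (self_mem_adj FL _)
  -- `th (g / f) ∈ adj`
  have h3 : Rel FL (th g) (th f * th (g / f)) := by
    have e : f * (g / f) = g := by field_simp
    have := h.th_mul f (g / f)
    rwa [e] at this
  have h4 : th (g / f) ∈ adj FL (th f) := by
    have h5 := (h3.mem_iff (le_adj FL _)).mp hg
    have : th (g / f) = (th f)⁻¹ * (th f * th (g / f)) := by field_simp
    rw [this]
    exact (adj FL _).mul_mem ((adj FL _).inv_mem (self_mem_adj FL _)) h5
  by_cases hr : g / f ∈ FK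
  · exact le_adj FL _ ((h.th_mem _).mpr (FK.add_mem FK.one_mem hr))
  · have h6 := (h.a0_spec hr).2
    rw [add_comm] at h6
    rw [h6.mem_iff (le_adj FL _)]
    exact (adj FL _).add_mem (((h.a0_spec hr).1.mem_iff (le_adj FL _)).mp h4) (one_mem_adj FL _)

/-- additivity for two elements outside `FK` -/
theorem al_add_aux {f g : K} (hf : f ∉ FK) (hg : g ∉ FK) :
    h.al (f + g) = h.a0 f + h.a0 g := by
  by_cases hG : Gen FL th f g
  · rw [h.al_of_not_mem (h.add_not_mem hG), h.a0_add hG]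
  · -- `th g ∈ adj (th f)`
    have hg' : th g ∈ adj FL (th f) := by
      by_contra hh
      exact hG ⟨h.th_not_mem hf, hh⟩
    obtain ⟨k, hk⟩ := h.exists_partner hf
    have hkK := h.gen_right hk
    -- `(g, k)` is generic
    have hgk : Gen FL th g k := ⟨h.th_not_mem hg, fun hh => hk.2 (adj_mono hg' hh)⟩
    have h1 := h.a0_add hgk
    -- `(f, g + k)` is generic
    have hfgk : Gen FL th f (g + k) := by
      refine ⟨h.th_not_mem hf, fun hh => hk.2 ?_⟩
      have h2 := ((h.rel_add_gen hgk).mem_iff (le_adj FL _)).mp hh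
      have h3 : h.a0 g ∈ adj FL (th f) := ((h.a0_spec hg).1.mem_iff (le_adj FL _)).mp hg'
      have h4 : h.a0 k ∈ adj FL (th f) := by simpa using (adj FL _).sub_mem h2 h3
      exact ((h.a0_spec hkK).1.mem_iff (le_adj FL _)).mpr h4
    have h2 := h.a0_add hfgk
    rw [h1] at h2
    by_cases hfg : f + g ∈ FK
    · rw [h.al_of_mem hfg]
      have h3 := h.a0_add_tau hkK hfg
      have : k + (f + g) = f + (g + k) := by ring
      rw [this, h2] at h3
      linear_combination -h3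
    · rw [h.al_of_not_mem hfg]
      have hG' : Gen FL th (f + g) k :=
        ⟨h.th_not_mem hfg, fun hh => hk.2 (adj_mono (h.th_add_mem_adj hf hg') hh)⟩
      have h3 := h.a0_add hG'
      have : f + g + k = f + (g + k) := by ring
      rw [this, h2] at h3
      linear_combination -h3

theorem al_add (f g : K) : h.al (f + g) = h.al f + h.al g := by
  by_cases hf : f ∈ FK
  · by_cases hg : g ∈ FK
    · rw [h.al_of_mem hf, h.al_of_mem hg, h.al_of_mem (FK.add_mem hf hg), h.tau_add hf hg]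
    · have hgf : g + f ∉ FK := h.add_const_not_mem hg hf
      rw [add_comm f g, h.al_of_mem hf, h.al_of_not_mem hg, h.al_of_not_mem hgf,
        h.a0_add_tau hg hf]
      ring
  · by_cases hg : g ∈ FK
    · rw [h.al_of_not_mem hf, h.al_of_mem hg, h.al_of_not_mem (h.add_const_not_mem hf hg),
        h.a0_add_tau hf hg]
    · rw [h.al_add_aux hf hg, h.al_of_not_mem hf, h.al_of_not_mem hg]

theorem al_zero : h.al 0 = 0 := by rw [h.al_of_mem FK.zero_mem, h.tau_zero]

theorem al_eq_zero_iff (f : K) : h.al f = 0 ↔ f = 0 := by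
  rw [← (h.rel_al f).eq_zero_iff, h.th_zero]

theorem al_not_mem {f : K} (hf : f ∉ FK) : h.al f ∉ FL := by
  rw [h.al_of_not_mem hf]; exact h.a0_not_mem hf

/-! ### A7/A8: multiplicativity -/

theorem rel_al_mul (u w : K) : Rel FL (h.al (u * w)) (h.al u * h.al w) :=
  ((h.rel_al (u * w)).symm.trans (h.th_mul u w)).trans ((h.rel_al u).mul (h.rel_al w))

theorem al_mul_aux {u w : K} (hw : w ∉ FK) : h.al (u * w) = h.al u * h.al w := by
  by_cases hu : u = 0
  · subst hu
    rw [zero_mul, h.al_zero, zero_mul]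
  have hu0 : h.al u ≠ 0 := fun hh => hu ((h.al_eq_zero_iff u).mp hh)
  obtain ⟨ε, hε, -, h1⟩ := h.rel_al_mul u w
  obtain ⟨ε', hε', -, h2⟩ := h.rel_al_mul u (w + 1)
  rw [mul_add, mul_one, h.al_add, h.al_add, h.al_one, h1] at h2
  have h3 : 1 + ε * h.al w = ε' + ε' * h.al w := by
    apply mul_left_cancel₀ hu0
    linear_combination h2
  have h4 := ind2 (h.al_not_mem hw) FL.one_mem hε hε' hε' h3
  rw [h1, h4.2, ← h4.1, one_mul]

theorem al_mul (u w : K) : h.al (u * w) = h.al u * h.al w := by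
  by_cases hw : w ∈ FK
  · have hb := h.base_not_mem
    have h1 := h.al_mul_aux (u := u) (h.add_const_not_mem hb hw)
    rw [mul_add, h.al_add, h.al_add, h.al_mul_aux hb] at h1
    linear_combination h1
  · exact h.al_mul_aux hw

/-- **Assembly theorem**: a representative map satisfying the line lemma comes from a ring
homomorphism. -/
theorem exists_ringHom : ∃ α : K →+* L, ∀ f, Rel FL (th f) (α f) :=
  ⟨{ toFun := h.al
     map_one' := h.al_one
     map_mul' := h.al_mul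
     map_zero' := h.al_zero
     map_add' := h.al_add }, h.rel_al⟩

end AssemblyData

end Crest.Agent.Helper50.S0010
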